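import Vale.Agent.P070.Model

/-! A counterexample to Naimark's problem in ZFC. -/

namespace Vale.Agent.Results.P070.Counterexample

universe u v w

/-- Representations of `A` on `H`: star-homomorphisms into the bounded operators, not assumed
unital. -/
def Rep (A : Type) [CStarAlgebra A] (H : Type u) [NormedAddCommGroup H]
    [InnerProductSpace ℂ H] [CompleteSpace H] : Type u := A →⋆ₙₐ[ℂ] (H →L[ℂ] H)

/-- The operator by which `a` acts. -/
noncomputable def Rep.op {A : Type} [CStarAlgebra A] {H : Type u} [NormedAddCommGroup H]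
    [InnerProductSpace ℂ H] [CompleteSpace H] (π : Rep A H) (a : A) : H →L[ℂ] H :=
  (show A →⋆ₙₐ[ℂ] (H →L[ℂ] H) from π) a

/-- An irreducible representation: nonzero, with no closed invariant subspace other than
`0` and the whole space. -/
def Rep.IsIrreducible {A : Type} [CStarAlgebra A] {H : Type u} [NormedAddCommGroup H]
    [InnerProductSpace ℂ H] [CompleteSpace H] (π : Rep A H) : Prop :=
  (∃ a, π.op a ≠ 0) ∧ ∀ L : Submodule ℂ H, IsClosed (L : Set H) →
    (∀ a, ∀ x ∈ L, π.op a x ∈ L) → L = ⊥ ∨ L = ⊤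

/-- Unitary equivalence of representations. -/
def Rep.Equivalent {A : Type} [CStarAlgebra A] {H₁ : Type u} [NormedAddCommGroup H₁]
    [InnerProductSpace ℂ H₁] [CompleteSpace H₁] {H₂ : Type v} [NormedAddCommGroup H₂]
    [InnerProductSpace ℂ H₂] [CompleteSpace H₂] (π₁ : Rep A H₁) (π₂ : Rep A H₂) : Prop :=
  ∃ U : H₁ ≃ₗᵢ[ℂ] H₂, ∀ a x, U (π₁.op a x) = π₂.op a (U x)

/-- The representation is a star-isomorphism onto the algebra of compact operators. -/
def Rep.IsIsoOntoCompacts {A : Type} [CStarAlgebra A] {H : Type u} [NormedAddCommGroup H]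
    [InnerProductSpace ℂ H] [CompleteSpace H] (Φ : Rep A H) : Prop :=
  Function.Injective Φ.op ∧ Set.range Φ.op = {T : H →L[ℂ] H | IsCompactOperator T}

theorem result : ∃ (A : Type) (_ : CStarAlgebra A), Nontrivial A ∧
    (∀ (H₁ : Type u) [NormedAddCommGroup H₁] [InnerProductSpace ℂ H₁] [CompleteSpace H₁]
      (H₂ : Type v) [NormedAddCommGroup H₂] [InnerProductSpace ℂ H₂] [CompleteSpace H₂]
      (π₁ : Rep A H₁) (π₂ : Rep A H₂),
      π₁.IsIrreducible → π₂.IsIrreducible → π₁.Equivalent π₂) ∧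
    ∀ (H : Type w) [NormedAddCommGroup H] [InnerProductSpace ℂ H] [CompleteSpace H],
      ¬ ∃ Φ : Rep A H, Φ.IsIsoOntoCompacts := by
  obtain ⟨G, hG, hN⟩ := Vale.Agent.P070.exists_algebra.{0, u, v} Vale.Agent.P070.tower.pkg
    Vale.Agent.P070.tower.strong
  have hinf := Vale.Agent.P070.tower.infinite _ hG
  refine ⟨Vale.Agent.P070.gen G, inferInstance, ?_, ?_, ?_⟩
  · by_contra h
    rw [not_nontrivial_iff_subsingleton] at h
    exact hinf inferInstance
  · intro H₁ _ _ _ H₂ _ _ _ π₁ π₂ h₁ h₂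
    obtain ⟨n₁, ρ₁, i₁, e₁⟩ := Vale.Agent.P070.unital_of_irr π₁ h₁.1 h₁.2
    obtain ⟨n₂, ρ₂, i₂, e₂⟩ := Vale.Agent.P070.unital_of_irr π₂ h₂.1 h₂.2
    obtain ⟨U, hU⟩ := hN H₁ H₂ ρ₁ ρ₂ i₁ i₂
    refine ⟨U, fun a x => ?_⟩
    have := hU a x
    rw [e₁, e₂] at this
    exact this
  · rintro H _ _ _ ⟨Φ, h₁, h₂⟩
    exact hinf (Vale.Agent.P070.finite_of_compact Φ h₁ h₂)

end Vale.Agent.Results.P070.Counterexample
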